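import Mathlib

/-!
# P032: coarsest families

`CC U` : the connected open sets contained in one of the sets `U i`.
`exists_coarse` : above every family of open sets without unit distances there is one, with every
set maximal, for which `CC` is maximal.
`Coarse.swap` : exchange of two colours in two regions without unit distances to the outside.
-/

open Set Filter Topology Metric

noncomputable section

namespace Vale.Agent.P032.S5.H497

variable {k : ℕ}

/-- open sets without unit distance -/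
def UF (W : Set ℂ) : Prop := IsOpen W ∧ ∀ x ∈ W, ∀ y ∈ W, dist x y ≠ 1

/-- the connected open sets of one colour -/
def CC (U : Fin k → Set ℂ) : Set (Set ℂ) := {W | IsOpen W ∧ IsConnected W ∧ ∃ i, W ⊆ U i}

/-- `U` is a coarsest family -/
structure Coarse (U : Fin k → Set ℂ) : Prop where
  uf : ∀ i, UF (U i)
  max : ∀ V : Fin k → Set ℂ, (∀ i, UF (V i)) → CC U ⊆ CC V → CC V ⊆ CC U

theorem CC_mono {U V : Fin k → Set ℂ} (h : ∀ i, U i ⊆ V i) : CC U ⊆ CC V :=
  fun _ ⟨h1, h2, i, hi⟩ => ⟨h1, h2, i, hi.trans (h i)⟩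

theorem ball_mem_CC {U : Fin k → Set ℂ} {x : ℂ} {r : ℝ} (hr : 0 < r) {i : Fin k}
    (h : ball x r ⊆ U i) : ball x r ∈ CC U :=
  ⟨isOpen_ball, ⟨⟨x, mem_ball_self hr⟩, (convex_ball x r).isPreconnected⟩, i, h⟩

theorem union_of_CC {U V : Fin k → Set ℂ} (hU : ∀ i, IsOpen (U i)) (h : CC U ⊆ CC V) :
    (⋃ i, U i) ⊆ ⋃ i, V i := by
  intro x hx
  obtain ⟨i, hi⟩ := mem_iUnion.1 hx
  obtain ⟨r, hr, hb⟩ := Metric.isOpen_iff.1 (hU i) x hi
  obtain ⟨-, -, j, hj⟩ := h (ball_mem_CC hr hb)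
  exact mem_iUnion.2 ⟨j, hj (mem_ball_self hr)⟩

/-- chains are bounded -/
theorem chain_bound (c : Set (Set (Set ℂ)))
    (hc : c ⊆ {s | ∃ U : Fin k → Set ℂ, (∀ i, UF (U i)) ∧ s = CC U})
    (hch : IsChain (· ⊆ ·) c) (hne : c.Nonempty) :
    ∃ U : Fin k → Set ℂ, (∀ i, UF (U i)) ∧ ∀ s ∈ c, s ⊆ CC U := by
  classical
  have hc' : ∀ s : c, ∃ U : Fin k → Set ℂ, (∀ i, UF (U i)) ∧ (s : Set (Set ℂ)) = CC U :=
    fun s => hc s.2
  choose U hU hs using hc'
  have : Nonempty c := hne.to_subtype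
  have : IsDirected c (· ≤ ·) := ⟨fun a b => by
    rcases hch.total a.2 b.2 with h | h
    · exact ⟨b, h, le_rfl⟩
    · exact ⟨a, le_rfl, h⟩⟩
  have : NeBot (atTop : Filter c) := atTop_neBot
  let F : Ultrafilter c := Ultrafilter.of atTop
  have hF : (F : Filter c) ≤ atTop := Ultrafilter.of_le atTop
  refine ⟨fun i => ⋃₀ {W | IsOpen W ∧ ∀ᶠ s in (F : Filter c), W ⊆ U s i}, fun i => ⟨?_, ?_⟩, ?_⟩
  · exact isOpen_sUnion fun W hW => hW.1
  · rintro x ⟨W, ⟨-, hW⟩, hx⟩ y ⟨W', ⟨-, hW'⟩, hy⟩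
    obtain ⟨s, h1, h2⟩ := (hW.and hW').exists
    exact (hU s i).2 x (h1 hx) y (h2 hy)
  · intro s hsc W hW
    have h1 : ∀ᶠ t in (F : Filter c), ∃ i, W ⊆ U t i := by
      refine hF ?_
      filter_upwards [Ici_mem_atTop (⟨s, hsc⟩ : c)] with t ht
      have h2 : W ∈ CC (U t) := by
        rw [← hs t]; exact ht hW
      exact h2.2.2
    have hW' : IsOpen W ∧ IsConnected W := by
      have h2 : W ∈ CC (U ⟨s, hsc⟩) := by rw [← hs]; exact hW
      exact ⟨h2.1, h2.2.1⟩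
    obtain ⟨i, hi⟩ : ∃ i, ∀ᶠ t in (F : Filter c), W ⊆ U t i := by
      by_contra hcon
      rw [not_exists] at hcon
      have h3 : ∀ i, ∀ᶠ t in (F : Filter c), ¬ W ⊆ U t i := fun i =>
        Ultrafilter.eventually_not.2 (hcon i)
      obtain ⟨t, ⟨i, hi⟩, ht⟩ := (h1.and (eventually_all.2 h3)).exists
      exact ht i hi
    exact ⟨hW'.1, hW'.2, i, subset_sUnion_of_mem ⟨hW'.1, hi⟩⟩

/-- every open set without unit distance is contained in a maximal one -/
theorem exists_max_uf {W : Set ℂ} (hW : UF W) :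
    ∃ M, W ⊆ M ∧ Maximal (fun W : Set ℂ => IsOpen W ∧ ∀ x ∈ W, ∀ y ∈ W, dist x y ≠ 1) M := by
  obtain ⟨M, hM, hmax⟩ := zorn_subset_nonempty {W : Set ℂ | UF W} (fun c hc hch hne => by
    refine ⟨⋃₀ c, ⟨isOpen_sUnion fun W hW => (hc hW).1, ?_⟩, fun s hs => subset_sUnion_of_mem hs⟩
    rintro x ⟨W, hW, hx⟩ y ⟨W', hW', hy⟩
    rcases hch.total hW hW' with h | h
    · exact (hc hW').2 x (h hx) y hy
    · exact (hc hW).2 x hx y (h hy)) W hW
  exact ⟨M, hM, hmax⟩

/-- **Existence of coarsest families.** -/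
theorem exists_coarse {U : Fin k → Set ℂ} (hU : ∀ i, UF (U i)) :
    ∃ V : Fin k → Set ℂ, Coarse V ∧ CC U ⊆ CC V ∧ (⋃ i, U i) ⊆ (⋃ i, V i) ∧
      ∀ i, Maximal (fun W : Set ℂ => IsOpen W ∧ ∀ x ∈ W, ∀ y ∈ W, dist x y ≠ 1) (V i) := by
  obtain ⟨m, hm, hmax⟩ := zorn_subset_nonempty
    {s | ∃ U : Fin k → Set ℂ, (∀ i, UF (U i)) ∧ s = CC U} (fun c hc hch hne => by
      obtain ⟨V, hV, hV'⟩ := chain_bound c hc hch hne
      exact ⟨CC V, ⟨V, hV, rfl⟩, hV'⟩) (CC U) ⟨U, hU, rfl⟩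
  obtain ⟨V₀, hV₀, rfl⟩ := hmax.prop
  choose V hV hVm using fun i => exists_max_uf (hV₀ i)
  have h1 : CC V₀ ⊆ CC V := CC_mono hV
  refine ⟨V, ⟨fun i => (hVm i).prop, fun V' hV' hle => ?_⟩, hm.trans h1,
    union_of_CC (fun i => (hU i).1) (hm.trans h1), hVm⟩
  exact (hmax.le_of_ge ⟨V', hV', rfl⟩ (h1.trans hle)).trans h1

/-- regular closure -/
theorem uf_interior_closure {O : Set ℂ} (hO : UF O) : UF (interior (closure O)) := by
  refine ⟨isOpen_interior, fun x hx y hy hxy => ?_⟩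
  -- a point `x'` of `O` near `x`
  have h1 : ∃ᶠ x' in 𝓝 x, x' ∈ O := mem_closure_iff_frequently.1 (interior_subset hx)
  have h2 : ∀ᶠ x' in 𝓝 x, y + (x' - x) ∈ interior (closure O) := by
    have : Tendsto (fun x' => y + (x' - x)) (𝓝 x) (𝓝 (y + (x - x))) := by
      exact (continuous_const.add (continuous_id.sub continuous_const)).tendsto x
    rw [sub_self, add_zero] at this
    exact this (isOpen_interior.mem_nhds hy)
  obtain ⟨x', hx', hy'⟩ := (h1.and_eventually h2).exists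
  set y1 := y + (x' - x) with hy1
  have h3 : ∃ᶠ y' in 𝓝 y1, y' ∈ O := mem_closure_iff_frequently.1 (interior_subset hy')
  have h4 : ∀ᶠ y' in 𝓝 y1, x' + (y' - y1) ∈ O := by
    have : Tendsto (fun y' => x' + (y' - y1)) (𝓝 y1) (𝓝 (x' + (y1 - y1))) := by
      exact (continuous_const.add (continuous_id.sub continuous_const)).tendsto y1
    rw [sub_self, add_zero] at this
    exact this (hO.1.mem_nhds hx')
  obtain ⟨y', hy'', hx''⟩ := (h3.and_eventually h4).exists
  refine hO.2 _ hx'' _ hy'' ?_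
  rw [← hxy, dist_eq_norm, dist_eq_norm, hy1]
  congr 1
  ring

/-- a connected set without points of the frontier is inside or outside -/
theorem conn_inside {W D : Set ℂ} (hW : IsConnected W) (h : Disjoint W (frontier D)) :
    W ⊆ interior D ∨ W ⊆ (closure D)ᶜ := by
  have h1 : W ⊆ interior D ∪ (closure D)ᶜ := by
    intro x hx
    by_cases h2 : x ∈ closure D
    · by_contra h3
      exact (disjoint_left.1 h hx) ⟨h2, fun h4 => h3 (Or.inl h4)⟩
    · exact Or.inr h2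
  refine hW.isPreconnected.subset_or_subset isOpen_interior isClosed_closure.isOpen_compl ?_ h1
  exact disjoint_compl_right.mono_left (interior_subset.trans subset_closure)

/-- **Exchange of two colours.** `DL`, `DR` regions whose frontiers are free of `c` resp. `a`;
no point of `a` outside `DR` sees a point of `c` in `DL`, no point of `c` outside `DL` sees a point of
`a` in `DR`.  Then a ball in the closure of `(U a \ DR) ∪ (U c ∩ DL)` has one colour. -/
theorem Coarse.swap {U : Fin k → Set ℂ} (hU : Coarse U) {a c : Fin k} (hac : a ≠ c)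
    {DL DR : Set ℂ} (hL : Disjoint (U c) (frontier DL)) (hR : Disjoint (U a) (frontier DR))
    (h1 : ∀ p ∈ U a, ∀ q ∈ U c ∩ DL, dist p q = 1 → p ∈ DR)
    (h2 : ∀ p ∈ U c, ∀ q ∈ U a ∩ DR, dist p q = 1 → p ∈ DL) {x : ℂ} {r : ℝ} (hr : 0 < r)
    (hB : ball x r ⊆ closure ((U a \ DR) ∪ (U c ∩ DL))) : ∃ i, ball x r ⊆ U i := by
  classical
  -- the new families
  set A : Set ℂ := (U a \ closure DR) ∪ (U c ∩ interior DL) with hA
  set C : Set ℂ := (U c \ closure DL) ∪ (U a ∩ interior DR) with hC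
  have hUa : ∀ p ∈ U a, p ∉ DR → p ∉ closure DR := fun p hp hD hc =>
    disjoint_left.1 hR hp ⟨hc, fun h3 => hD (interior_subset h3)⟩
  have hUa' : ∀ p ∈ U a, p ∈ DR → p ∈ interior DR := fun p hp hD => by
    by_contra h3
    exact disjoint_left.1 hR hp ⟨subset_closure hD, h3⟩
  have hUc : ∀ p ∈ U c, p ∉ DL → p ∉ closure DL := fun p hp hD hc =>
    disjoint_left.1 hL hp ⟨hc, fun h3 => hD (interior_subset h3)⟩
  have hUc' : ∀ p ∈ U c, p ∈ DL → p ∈ interior DL := fun p hp hD => by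
    by_contra h3
    exact disjoint_left.1 hL hp ⟨subset_closure hD, h3⟩
  have hAo : UF A := by
    refine ⟨((hU.uf a).1.sdiff isClosed_closure).union ((hU.uf c).1.inter isOpen_interior), ?_⟩
    rintro p (⟨hp, hp'⟩ | ⟨hp, hp'⟩) q (⟨hq, hq'⟩ | ⟨hq, hq'⟩) hpq
    · exact (hU.uf a).2 p hp q hq hpq
    · exact hp' (subset_closure (h1 p hp q ⟨hq, interior_subset hq'⟩ hpq))
    · exact hq' (subset_closure (h1 q hq p ⟨hp, interior_subset hp'⟩ (by rw [dist_comm]; exact hpq)))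
    · exact (hU.uf c).2 p hp q hq hpq
  have hCo : UF C := by
    refine ⟨((hU.uf c).1.sdiff isClosed_closure).union ((hU.uf a).1.inter isOpen_interior), ?_⟩
    rintro p (⟨hp, hp'⟩ | ⟨hp, hp'⟩) q (⟨hq, hq'⟩ | ⟨hq, hq'⟩) hpq
    · exact (hU.uf c).2 p hp q hq hpq
    · exact hp' (subset_closure (h2 p hp q ⟨hq, interior_subset hq'⟩ hpq))
    · exact hq' (subset_closure (h2 q hq p ⟨hp, interior_subset hp'⟩ (by rw [dist_comm]; exact hpq)))
    · exact (hU.uf a).2 p hp q hq hpq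
  have hAo' := uf_interior_closure hAo
  set V : Fin k → Set ℂ := fun i => if i = a then interior (closure A) else if i = c then C else U i
    with hV
  have hVa : V a = interior (closure A) := by simp [hV]
  have hVc : V c = C := by simp [hV, hac.symm]
  have hVo : ∀ i, i ≠ a → i ≠ c → V i = U i := fun i h3 h4 => by simp [hV, h3, h4]
  have hVuf : ∀ i, UF (V i) := by
    intro i
    by_cases h3 : i = a
    · rw [h3, hVa]; exact hAo'
    · by_cases h4 : i = c
      · rw [h4, hVc]; exact hCo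
      · rw [hVo i h3 h4]; exact hU.uf i
  have hAV : A ⊆ V a := by
    rw [hVa]; exact interior_maximal subset_closure hAo.1
  have hle : CC U ⊆ CC V := by
    rintro W ⟨hWo, hWc, i, hi⟩
    refine ⟨hWo, hWc, ?_⟩
    by_cases h3 : i = a
    · rw [h3] at hi
      rcases conn_inside hWc (hR.mono_left hi) with h4 | h4
      · exact ⟨c, by rw [hVc]; exact fun p hp => Or.inr ⟨hi hp, h4 hp⟩⟩
      · exact ⟨a, fun p hp => hAV (Or.inl ⟨hi hp, h4 hp⟩)⟩
    · by_cases h5 : i = c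
      · rw [h5] at hi
        rcases conn_inside hWc (hL.mono_left hi) with h4 | h4
        · exact ⟨a, fun p hp => hAV (Or.inr ⟨hi hp, h4 hp⟩)⟩
        · exact ⟨c, by rw [hVc]; exact fun p hp => Or.inl ⟨hi hp, h4 hp⟩⟩
      · exact ⟨i, by rw [hVo i h3 h5]; exact hi⟩
  have hsub : (U a \ DR) ∪ (U c ∩ DL) ⊆ A := by
    rintro p (⟨hp, hp'⟩ | ⟨hp, hp'⟩)
    · exact Or.inl ⟨hp, hUa p hp hp'⟩
    · exact Or.inr ⟨hp, hUc' p hp hp'⟩
  have hball : ball x r ⊆ V a := by
    rw [hVa]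
    exact interior_maximal (hB.trans (closure_mono hsub)) isOpen_ball
  obtain ⟨-, -, i, hi⟩ := hU.max V hVuf hle (ball_mem_CC hr hball)
  exact ⟨i, hi⟩

end Vale.Agent.P032.S5.H497
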